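import Mathlib.Probability.Distributions.Gaussian.Real
import Mathlib.MeasureTheory.Function.Jacobian
import Mathlib.MeasureTheory.Integral.Pi

/-!
# P146: transport of a product Gaussian measure by a differentiable injective map
-/

open MeasureTheory ProbabilityTheory Set

namespace Vale.Agent.P146.R2.H533

variable {ι : Type*} [Fintype ι]

/-- the density of the standard Gaussian measure on `ℝ^ι` -/
noncomputable def gphi (z : ι → ℝ) : ℝ := ∏ i, gaussianPDFReal 0 1 (z i)

theorem gphi_eq (z : ι → ℝ) :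
    gphi z = (Real.sqrt (2 * Real.pi))⁻¹ ^ Fintype.card ι * Real.exp (-(∑ i, z i ^ 2) / 2) := by
  unfold gphi gaussianPDFReal
  simp only [NNReal.coe_one, sub_zero, mul_one]
  rw [Finset.prod_mul_distrib, Finset.prod_const, Finset.card_univ, ← Real.exp_sum]
  congr 2
  rw [← Finset.sum_div, Finset.sum_neg_distrib]

theorem gphi_pos (z : ι → ℝ) : 0 < gphi z := by
  rw [gphi_eq]
  positivity

/-- the standard Gaussian measure on `ℝ^ι` has the density `gphi` -/
theorem pi_gauss : (Measure.pi fun _ : ι => gaussianReal 0 1) =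
    (volume : Measure (ι → ℝ)).withDensity (fun z => ENNReal.ofReal (gphi z)) := by
  refine Measure.pi_eq fun S hS => ?_
  rw [withDensity_apply _ (MeasurableSet.univ_pi hS), volume_pi, Measure.restrict_pi_pi]
  have hI : ∀ i : ι, Integrable (gaussianPDFReal 0 1) ((volume : Measure ℝ).restrict (S i)) :=
    fun i => (integrable_gaussianPDFReal 0 1).restrict
  have hI2 : Integrable (fun z : ι → ℝ => ∏ i, gaussianPDFReal 0 1 (z i))
      (Measure.pi fun i => (volume : Measure ℝ).restrict (S i)) :=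
    Integrable.fintype_prod hI
  unfold gphi
  rw [← ofReal_integral_eq_lintegral_ofReal hI2
    (Filter.Eventually.of_forall fun z => Finset.prod_nonneg fun i _ =>
      gaussianPDFReal_nonneg 0 1 (z i)),
    integral_fintype_prod_eq_prod (fun (_ : ι) (x : ℝ) => gaussianPDFReal 0 1 x),
    ENNReal.ofReal_prod_of_nonneg (fun i _ => integral_nonneg fun x =>
      gaussianPDFReal_nonneg 0 1 x)]
  refine Finset.prod_congr rfl fun i _ => ?_
  rw [gaussianReal_apply_eq_integral _ one_ne_zero]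

/-- **Transport.** If `T` is differentiable and injective on `B` and
`exp (-c) ≤ exp ((|z|² - |T z|²)/2) |det T'(z)|` there, then `γ (T B) ≥ exp (-c) γ B`. -/
theorem transport {B : Set (ι → ℝ)} (hB : MeasurableSet B) {T : (ι → ℝ) → (ι → ℝ)}
    {T' : (ι → ℝ) → (ι → ℝ) →L[ℝ] (ι → ℝ)} (hT : ∀ z ∈ B, HasFDerivWithinAt T (T' z) B z)
    (hinj : InjOn T B) {c : ℝ}
    (hc : ∀ z ∈ B, Real.exp (-c) ≤
      Real.exp ((∑ i, z i ^ 2 - ∑ i, T z i ^ 2) / 2) * |(T' z).det|) :
    ENNReal.ofReal (Real.exp (-c)) * (Measure.pi fun _ : ι => gaussianReal 0 1) B ≤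
      (Measure.pi fun _ : ι => gaussianReal 0 1) (T '' B) := by
  rw [pi_gauss, withDensity_apply _ hB,
    withDensity_apply _ (measurable_image_of_fderivWithin hB hT hinj),
    lintegral_image_eq_lintegral_abs_det_fderiv_mul volume hB hT hinj,
    ← lintegral_const_mul' _ _ ENNReal.ofReal_ne_top]
  refine setLIntegral_mono' hB fun z hz => ?_
  rw [← ENNReal.ofReal_mul (Real.exp_pos _).le, ← ENNReal.ofReal_mul (abs_nonneg _)]
  refine ENNReal.ofReal_le_ofReal ?_
  have h1 : gphi (T z) = gphi z * Real.exp ((∑ i, z i ^ 2 - ∑ i, T z i ^ 2) / 2) := by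
    rw [gphi_eq, gphi_eq, mul_assoc, ← Real.exp_add]
    congr 2
    ring
  rw [h1]
  have h2 := mul_le_mul_of_nonneg_left (hc z hz) (gphi_pos z).le
  calc Real.exp (-c) * gphi z = gphi z * Real.exp (-c) := mul_comm _ _
    _ ≤ _ := h2
    _ = _ := by ring

/-- the same for real measures and a superset of the image -/
theorem transport_real {B A : Set (ι → ℝ)} (hB : MeasurableSet B) {T : (ι → ℝ) → (ι → ℝ)}
    {T' : (ι → ℝ) → (ι → ℝ) →L[ℝ] (ι → ℝ)} (hT : ∀ z ∈ B, HasFDerivWithinAt T (T' z) B z)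
    (hinj : InjOn T B) {c : ℝ}
    (hc : ∀ z ∈ B, Real.exp (-c) ≤
      Real.exp ((∑ i, z i ^ 2 - ∑ i, T z i ^ 2) / 2) * |(T' z).det|)
    (hA : ∀ z ∈ B, T z ∈ A) :
    Real.exp (-c) * (Measure.pi fun _ : ι => gaussianReal 0 1).real B ≤
      (Measure.pi fun _ : ι => gaussianReal 0 1).real A := by
  have h1 := (transport hB hT hinj hc).trans (measure_mono (image_subset_iff.2 hA))
  have h2 := ENNReal.toReal_mono (measure_ne_top _ _) h1
  rw [ENNReal.toReal_mul, ENNReal.toReal_ofReal (Real.exp_pos _).le] at h2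
  exact h2

/-- the form with a displacement: `T z = z - v z`, derivative `1 - K z`; the exponent is
`⟨z, v⟩ - |v|²/2 + log |det (1 - K)|` -/
theorem transport_disp {B A : Set (ι → ℝ)} (hB : MeasurableSet B) {v : (ι → ℝ) → (ι → ℝ)}
    {K : (ι → ℝ) → (ι → ℝ) →L[ℝ] (ι → ℝ)} (hv : ∀ z ∈ B, HasFDerivWithinAt v (K z) B z)
    (hinj : InjOn (fun z => z - v z) B) {c : ℝ}
    (hdet : ∀ z ∈ B, 0 < |(ContinuousLinearMap.id ℝ (ι → ℝ) - K z).det|)
    (hc : ∀ z ∈ B, -c ≤ ∑ i, z i * v z i - (∑ i, v z i ^ 2) / 2 +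
      Real.log |(ContinuousLinearMap.id ℝ (ι → ℝ) - K z).det|)
    (hA : ∀ z ∈ B, z - v z ∈ A) :
    Real.exp (-c) * (Measure.pi fun _ : ι => gaussianReal 0 1).real B ≤
      (Measure.pi fun _ : ι => gaussianReal 0 1).real A := by
  refine transport_real hB (T := fun z => z - v z)
    (T' := fun z => ContinuousLinearMap.id ℝ (ι → ℝ) - K z)
    (fun z hz => (hasFDerivWithinAt_id z B).sub (hv z hz)) hinj (fun z hz => ?_) hA
  rw [← Real.exp_log (hdet z hz), ← Real.exp_add]
  refine Real.exp_le_exp.2 ((hc z hz).trans (le_of_eq ?_))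
  congr 1
  have h1 : ∑ i, z i ^ 2 - ∑ i, (z - v z) i ^ 2 =
      2 * ∑ i, z i * v z i - ∑ i, v z i ^ 2 := by
    rw [Finset.mul_sum, ← Finset.sum_sub_distrib, ← Finset.sum_sub_distrib]
    refine Finset.sum_congr rfl fun i _ => ?_
    rw [Pi.sub_apply]
    ring
  rw [h1]
  ring

/-- the same with a lower bound `exp (l z) ≤ |det (1 - K z)|` -/
theorem transport_lb {B A : Set (ι → ℝ)} (hB : MeasurableSet B) {v : (ι → ℝ) → (ι → ℝ)}
    {K : (ι → ℝ) → (ι → ℝ) →L[ℝ] (ι → ℝ)} (hv : ∀ z ∈ B, HasFDerivWithinAt v (K z) B z)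
    (hinj : InjOn (fun z => z - v z) B) {c : ℝ} {l : (ι → ℝ) → ℝ}
    (hl : ∀ z ∈ B, Real.exp (l z) ≤ |(ContinuousLinearMap.id ℝ (ι → ℝ) - K z).det|)
    (hc : ∀ z ∈ B, -c ≤ ∑ i, z i * v z i - (∑ i, v z i ^ 2) / 2 + l z)
    (hA : ∀ z ∈ B, z - v z ∈ A) :
    Real.exp (-c) * (Measure.pi fun _ : ι => gaussianReal 0 1).real B ≤
      (Measure.pi fun _ : ι => gaussianReal 0 1).real A := by
  refine transport_disp hB hv hinj (fun z hz => (Real.exp_pos _).trans_le (hl z hz))
    (fun z hz => ?_) hA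
  have h1 := (Real.le_log_iff_exp_le ((Real.exp_pos _).trans_le (hl z hz))).2 (hl z hz)
  have h2 := hc z hz
  linarith

/-- the lower bound for the determinant of a small symmetric perturbation is only needed on the
set; a map with a displacement of Lipschitz constant `< 1` on a set is injective there -/
theorem injOn_of_lip {E : Type*} [NormedAddCommGroup E] {B : Set E} {v : E → E} {q : ℝ}
    (hq : q < 1) (h : ∀ x ∈ B, ∀ y ∈ B, ‖v x - v y‖ ≤ q * ‖x - y‖) :
    InjOn (fun z => z - v z) B := by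
  intro x hx y hy hxy
  have h1 : x - y = v x - v y := by
    have h2 : x - v x = y - v y := hxy
    have h3 : x - v x - (y - v y) = 0 := sub_eq_zero.2 h2
    have h4 : x - y - (v x - v y) = 0 := by rw [← h3]; abel
    exact sub_eq_zero.1 h4
  have h5 := h x hx y hy
  rw [← h1] at h5
  have h6 : ‖x - y‖ = 0 := by
    have := norm_nonneg (x - y)
    nlinarith
  exact sub_eq_zero.1 (norm_eq_zero.1 h6)

end Vale.Agent.P146.R2.H533
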