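import Vale.Agent.P146.R2.H729.TrDef
import Vale.Agent.P146.R2.H533.Tr

/-! # P146: row A (transport of Gaussian measures) in the form of `TrDef` -/

open MeasureTheory ProbabilityTheory Matrix Filter Topology

namespace Vale.Agent.P146.R2.H533

open Vale.Agent.P157.Lv (gI)

theorem stA : Vale.Agent.P146.R2.H729.Tr.StA := by
  intro ι _ _ B A T M c hB hA hT hinj hmaps hM
  have hdet : ∀ z, (LinearMap.toContinuousLinearMap (Matrix.toLin' (M z))).det = (M z).det := by
    intro z
    rw [ContinuousLinearMap.det, LinearMap.coe_toContinuousLinearMap, LinearMap.det_toLin']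
  exact transport_real hB (T := T)
    (T' := fun z => LinearMap.toContinuousLinearMap (Matrix.toLin' (M z)))
    (fun z _ => (hT z).hasFDerivWithinAt) hinj (fun z hz => by
      obtain ⟨h1, h2⟩ := hM z hz
      rw [hdet z, ← Real.exp_log (abs_pos.2 h1), ← Real.exp_add]
      exact Real.exp_le_exp.2 (h2.trans (le_of_eq (add_comm _ _)))) fun z hz => hmaps hz

end Vale.Agent.P146.R2.H533
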