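import Vale.Agent.P146.R2.H729.TrDef

/-! # P146: row E (Hilbert-Schmidt bounds) -/

open MeasureTheory ProbabilityTheory Matrix Filter Topology
open scoped Matrix.Norms.L2Operator

namespace Vale.Agent.P146.R2.H533

open Vale.Agent.P146.R2.H432 (cheb)
open Vale.Agent.P146.Sk (Wm Ix)
open Vale.Agent.P146.R2.H729.Tr

variable {N : ℕ}

/-- the Hilbert-Schmidt norm -/
noncomputable def hs (X : Matrix (Fin N) (Fin N) ℝ) : ℝ := √(∑ i, ∑ j, X i j ^ 2)

theorem hs_nonneg (X : Matrix (Fin N) (Fin N) ℝ) : 0 ≤ hs X := Real.sqrt_nonneg _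

theorem hs_sq (X : Matrix (Fin N) (Fin N) ℝ) : hs X ^ 2 = ∑ i, ∑ j, X i j ^ 2 :=
  Real.sq_sqrt (Finset.sum_nonneg fun _ _ => Finset.sum_nonneg fun _ _ => sq_nonneg _)

theorem hs_eq (X : Matrix (Fin N) (Fin N) ℝ) :
    hs X = ‖(WithLp.toLp 2 (fun e : Fin N × Fin N => X e.1 e.2) :
      EuclideanSpace ℝ (Fin N × Fin N))‖ := by
  rw [EuclideanSpace.norm_eq, hs, Fintype.sum_prod_type]
  simp only [Real.norm_eq_abs, sq_abs]

theorem hs_add (X Y : Matrix (Fin N) (Fin N) ℝ) : hs (X + Y) ≤ hs X + hs Y := by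
  have h := norm_add_le
    (WithLp.toLp 2 (fun e : Fin N × Fin N => X e.1 e.2) : EuclideanSpace ℝ (Fin N × Fin N))
    (WithLp.toLp 2 (fun e : Fin N × Fin N => Y e.1 e.2))
  rw [hs_eq, hs_eq, hs_eq]
  exact h

theorem hs_smul (c : ℝ) (X : Matrix (Fin N) (Fin N) ℝ) : hs (c • X) = |c| * hs X := by
  have h : hs (c • X) = √(|c| ^ 2 * ∑ i, ∑ j, X i j ^ 2) := by
    unfold hs
    congr 1
    rw [Finset.mul_sum]
    refine Finset.sum_congr rfl fun i _ => ?_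
    rw [Finset.mul_sum]
    refine Finset.sum_congr rfl fun j _ => ?_
    rw [Matrix.smul_apply, smul_eq_mul, mul_pow, sq_abs]
  rw [h, Real.sqrt_mul (sq_nonneg _), Real.sqrt_sq (abs_nonneg c)]
  rfl

theorem hs_zero : hs (0 : Matrix (Fin N) (Fin N) ℝ) = 0 := by
  unfold hs
  simp

theorem hs_neg (X : Matrix (Fin N) (Fin N) ℝ) : hs (-X) = hs X := by
  unfold hs
  congr 1
  refine Finset.sum_congr rfl fun i _ => Finset.sum_congr rfl fun j _ => ?_
  rw [Matrix.neg_apply, neg_sq]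

theorem hs_sub (X Y : Matrix (Fin N) (Fin N) ℝ) : hs (X - Y) ≤ hs X + hs Y := by
  rw [sub_eq_add_neg]
  exact (hs_add _ _).trans (by rw [hs_neg])

theorem hs_sum {ι : Type*} (s : Finset ι) (X : ι → Matrix (Fin N) (Fin N) ℝ) :
    hs (∑ i ∈ s, X i) ≤ ∑ i ∈ s, hs (X i) := by
  classical
  induction s using Finset.induction_on with
  | empty => simp [hs_zero]
  | insert a s ha ih =>
    rw [Finset.sum_insert ha, Finset.sum_insert ha]
    exact (hs_add _ _).trans (by linarith)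

theorem hs_transpose (X : Matrix (Fin N) (Fin N) ℝ) : hs Xᵀ = hs X := by
  unfold hs
  rw [Finset.sum_comm]
  rfl

theorem mulVec_sq (U : Matrix (Fin N) (Fin N) ℝ) (v : Fin N → ℝ) :
    ∑ i, (U *ᵥ v) i ^ 2 ≤ ‖U‖ ^ 2 * ∑ i, v i ^ 2 := by
  have h := Matrix.l2_opNorm_mulVec U (WithLp.toLp 2 v)
  have h1 := pow_le_pow_left₀ (norm_nonneg _) h 2
  rw [mul_pow, EuclideanSpace.norm_sq_eq, EuclideanSpace.norm_sq_eq] at h1
  simp only [Real.norm_eq_abs, sq_abs] at h1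
  exact h1

theorem hs_mul_left (U X : Matrix (Fin N) (Fin N) ℝ) : hs (U * X) ≤ ‖U‖ * hs X := by
  have h : ∑ i, ∑ j, (U * X) i j ^ 2 ≤ ‖U‖ ^ 2 * ∑ i, ∑ j, X i j ^ 2 := by
    rw [Finset.sum_comm, Finset.sum_comm (f := fun i j => X i j ^ 2), Finset.mul_sum]
    refine Finset.sum_le_sum fun j _ => ?_
    exact mulVec_sq U fun i => X i j
  unfold hs
  calc √(∑ i, ∑ j, (U * X) i j ^ 2) ≤ √(‖U‖ ^ 2 * ∑ i, ∑ j, X i j ^ 2) := Real.sqrt_le_sqrt h
    _ = ‖U‖ * √(∑ i, ∑ j, X i j ^ 2) := by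
      rw [Real.sqrt_mul (sq_nonneg _), Real.sqrt_sq (norm_nonneg _)]

theorem hs_mul_right (X U : Matrix (Fin N) (Fin N) ℝ) : hs (X * U) ≤ hs X * ‖U‖ := by
  have h1 : ‖Uᵀ‖ = ‖U‖ := by
    rw [← Matrix.conjTranspose_eq_transpose_of_trivial, Matrix.l2_opNorm_conjTranspose]
  rw [← hs_transpose, Matrix.transpose_mul, ← hs_transpose X, mul_comm, ← h1]
  exact hs_mul_left _ _

theorem norm_one_le : ‖(1 : Matrix (Fin N) (Fin N) ℝ)‖ ≤ 1 := by
  rcases isEmpty_or_nonempty (Fin N) with h | h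
  · have : (1 : Matrix (Fin N) (Fin N) ℝ) = 0 := Subsingleton.elim _ _
    rw [this, norm_zero]
    exact zero_le_one
  · have h2 : ‖(1 : Matrix (Fin N) (Fin N) ℝ)‖ * ‖(1 : Matrix (Fin N) (Fin N) ℝ)‖ =
        ‖(1 : Matrix (Fin N) (Fin N) ℝ)‖ := by
      have := Matrix.l2_opNorm_conjTranspose_mul_self (1 : Matrix (Fin N) (Fin N) ℝ)
      rw [Matrix.conjTranspose_one, Matrix.one_mul] at this
      exact this.symm
    by_contra hcon
    push Not at hcon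
    nlinarith

theorem norm_cheb {A : Matrix (Fin N) (Fin N) ℝ} (hA : ‖A‖ ≤ 3) (k : ℕ) :
    ‖cheb k A‖ ≤ 4 ^ k ∧ ‖cheb (k + 1) A‖ ≤ 4 ^ (k + 1) := by
  induction k with
  | zero =>
    refine ⟨by simpa [cheb] using norm_one_le, ?_⟩
    simp only [cheb, zero_add, pow_one]
    linarith
  | succ k ih =>
    refine ⟨ih.2, ?_⟩
    show ‖A * cheb (k + 1) A - cheb k A‖ ≤ 4 ^ (k + 1 + 1)
    have h1 := norm_sub_le (A * cheb (k + 1) A) (cheb k A)
    have h2 := Matrix.l2_opNorm_mul A (cheb (k + 1) A)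
    have h3 : ‖A‖ * ‖cheb (k + 1) A‖ ≤ 3 * 4 ^ (k + 1) :=
      mul_le_mul hA ih.2 (norm_nonneg _) (by norm_num)
    have h4 : (0 : ℝ) < 4 ^ k := by positivity
    rw [pow_succ, pow_succ]
    rw [pow_succ] at h3
    linarith [ih.1]

theorem norm_cheb' {A : Matrix (Fin N) (Fin N) ℝ} (hA : ‖A‖ ≤ 3) (k : ℕ) :
    ‖cheb k A‖ ≤ 4 ^ k := (norm_cheb hA k).1

theorem hs_cheb_sub {A B : Matrix (Fin N) (Fin N) ℝ} (hA : ‖A‖ ≤ 3) (hB : ‖B‖ ≤ 3) (k : ℕ) :
    hs (cheb k A - cheb k B) ≤ k * 4 ^ k * hs (A - B) ∧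
      hs (cheb (k + 1) A - cheb (k + 1) B) ≤ (k + 1 : ℕ) * 4 ^ (k + 1) * hs (A - B) := by
  induction k with
  | zero =>
    have h0 := hs_nonneg (A - B)
    refine ⟨?_, ?_⟩
    · simp only [cheb, sub_self, hs_zero, Nat.cast_zero, zero_mul, le_refl]
    · simp only [cheb, zero_add, Nat.cast_one, pow_one, one_mul]
      linarith
  | succ k ih =>
    refine ⟨ih.2, ?_⟩
    have h0 := hs_nonneg (A - B)
    have e : cheb (k + 1 + 1) A - cheb (k + 1 + 1) B =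
        A * (cheb (k + 1) A - cheb (k + 1) B) + (A - B) * cheb (k + 1) B -
          (cheb k A - cheb k B) := by
      show A * cheb (k + 1) A - cheb k A - (B * cheb (k + 1) B - cheb k B) = _
      rw [Matrix.mul_sub, Matrix.sub_mul]
      abel
    rw [e]
    have h1 := hs_sub (A * (cheb (k + 1) A - cheb (k + 1) B) + (A - B) * cheb (k + 1) B)
      (cheb k A - cheb k B)
    have h2 := hs_add (A * (cheb (k + 1) A - cheb (k + 1) B)) ((A - B) * cheb (k + 1) B)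
    have h3 : hs (A * (cheb (k + 1) A - cheb (k + 1) B)) ≤
        3 * ((k + 1 : ℕ) * 4 ^ (k + 1) * hs (A - B)) :=
      (hs_mul_left _ _).trans (mul_le_mul hA ih.2 (hs_nonneg _) (by norm_num))
    have h4 : hs ((A - B) * cheb (k + 1) B) ≤ hs (A - B) * 4 ^ (k + 1) :=
      (hs_mul_right _ _).trans (mul_le_mul_of_nonneg_left (norm_cheb' hB _) h0)
    have h5 := ih.1
    have h6 : (0 : ℝ) ≤ 4 ^ k * hs (A - B) := by positivity
    have h7 : (0 : ℝ) ≤ k * (4 ^ k * hs (A - B)) := by positivity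
    push_cast at h3 ⊢
    have e1 : 3 * (((k : ℝ) + 1) * 4 ^ (k + 1) * hs (A - B)) =
        12 * (k * (4 ^ k * hs (A - B))) + 12 * (4 ^ k * hs (A - B)) := by ring
    have e2 : hs (A - B) * 4 ^ (k + 1) = 4 * (4 ^ k * hs (A - B)) := by ring
    have e3 : (k : ℝ) * 4 ^ k * hs (A - B) = k * (4 ^ k * hs (A - B)) := by ring
    have e4 : ((k : ℝ) + 1 + 1) * 4 ^ (k + 1 + 1) * hs (A - B) =
        16 * (k * (4 ^ k * hs (A - B))) + 32 * (4 ^ k * hs (A - B)) := by ring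
    rw [e1] at h3
    rw [e2] at h4
    rw [e3] at h5
    rw [e4]
    linarith

/-- the matrix form of `KK L c A *ᵥ x` -/
noncomputable def YY (L : ℕ) (c : ℕ → ℝ) (A X : Matrix (Fin N) (Fin N) ℝ) :
    Matrix (Fin N) (Fin N) ℝ :=
  (1 / 2 : ℝ) • ∑ k ∈ Finset.range L, c k • ∑ a ∈ Finset.range (k + 1),
    (cheb a A * X * cheb (k - a) A + cheb a A * Xᵀ * cheb (k - a) A)

theorem KK_mulVec (L : ℕ) (c : ℕ → ℝ) (A : Matrix (Fin N) (Fin N) ℝ) (x : Ix N → ℝ) (e : Ix N) :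
    (KK L c A *ᵥ x) e = YY L c A (Matrix.of fun i j => x (i, j)) e.1 e.2 := by
  have h1 : ∀ U V : Matrix (Fin N) (Fin N) ℝ, ∑ f : Ix N, U e.1 f.1 * V f.2 e.2 * x f =
      (U * (Matrix.of fun i j => x (i, j)) * V) e.1 e.2 := by
    intro U V
    rw [Fintype.sum_prod_type, Matrix.mul_apply, Finset.sum_comm]
    refine Finset.sum_congr rfl fun j _ => ?_
    rw [Matrix.mul_apply, Finset.sum_mul]
    refine Finset.sum_congr rfl fun i _ => ?_
    simp only [Matrix.of_apply]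
    ring
  have h2 : ∀ U V : Matrix (Fin N) (Fin N) ℝ, ∑ f : Ix N, U e.1 f.2 * V f.1 e.2 * x f =
      (U * (Matrix.of fun i j => x (i, j))ᵀ * V) e.1 e.2 := by
    intro U V
    rw [Fintype.sum_prod_type, Matrix.mul_apply]
    refine Finset.sum_congr rfl fun i _ => ?_
    rw [Matrix.mul_apply, Finset.sum_mul]
    refine Finset.sum_congr rfl fun j _ => ?_
    simp only [Matrix.of_apply, Matrix.transpose_apply]
    ring
  have hL : (KK L c A *ᵥ x) e = 1 / 2 * ∑ k ∈ Finset.range L, c k * ∑ a ∈ Finset.range (k + 1),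
      (∑ f : Ix N, cheb a A e.1 f.1 * cheb (k - a) A f.2 e.2 * x f +
        ∑ f : Ix N, cheb a A e.1 f.2 * cheb (k - a) A f.1 e.2 * x f) := by
    unfold KK Matrix.mulVec dotProduct
    simp only [Matrix.of_apply]
    simp_rw [mul_assoc (1 / 2 : ℝ), ← Finset.mul_sum]
    congr 1
    simp_rw [Finset.sum_mul]
    rw [Finset.sum_comm]
    refine Finset.sum_congr rfl fun k _ => ?_
    simp_rw [mul_assoc (c k), ← Finset.mul_sum]
    congr 1
    simp_rw [Finset.sum_mul]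
    rw [Finset.sum_comm]
    refine Finset.sum_congr rfl fun a _ => ?_
    rw [← Finset.sum_add_distrib]
    refine Finset.sum_congr rfl fun f _ => ?_
    ring
  rw [hL]
  unfold YY
  simp only [Matrix.smul_apply, Matrix.sum_apply, smul_eq_mul, Matrix.add_apply]
  congr 1
  refine Finset.sum_congr rfl fun k _ => ?_
  congr 1
  refine Finset.sum_congr rfl fun a _ => ?_
  rw [h1, h2]

theorem hs_YY (L : ℕ) (c : ℕ → ℝ) {A : Matrix (Fin N) (Fin N) ℝ} (hA : ‖A‖ ≤ 3)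
    (X : Matrix (Fin N) (Fin N) ℝ) :
    hs (YY L c A X) ≤ (∑ k ∈ Finset.range L, |c k| * ((k + 1) * 4 ^ k)) * hs X := by
  have h0 := hs_nonneg X
  have key : ∀ (k a : ℕ) (Z : Matrix (Fin N) (Fin N) ℝ), a ≤ k → hs Z = hs X →
      hs (cheb a A * Z * cheb (k - a) A) ≤ 4 ^ k * hs X := by
    intro k a Z hak hZ
    have h1 := hs_mul_right (cheb a A * Z) (cheb (k - a) A)
    have h2 := hs_mul_left (cheb a A) Z
    have h3 := norm_cheb' hA a
    have h4 := norm_cheb' hA (k - a)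
    rw [hZ] at h2
    have h5 : ‖cheb a A‖ * hs X ≤ 4 ^ a * hs X := mul_le_mul_of_nonneg_right h3 h0
    calc hs (cheb a A * Z * cheb (k - a) A) ≤ hs (cheb a A * Z) * ‖cheb (k - a) A‖ := h1
      _ ≤ (4 ^ a * hs X) * 4 ^ (k - a) :=
        mul_le_mul (h2.trans h5) h4 (norm_nonneg _) (by positivity)
      _ = 4 ^ k * hs X := by
        rw [mul_right_comm, ← pow_add, Nat.add_sub_cancel' hak]
  unfold YY
  rw [hs_smul, abs_of_pos (by norm_num : (0 : ℝ) < 1 / 2)]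
  have h1 : hs (∑ k ∈ Finset.range L, c k • ∑ a ∈ Finset.range (k + 1),
      (cheb a A * X * cheb (k - a) A + cheb a A * Xᵀ * cheb (k - a) A)) ≤
      ∑ k ∈ Finset.range L, |c k| * ((k + 1) * (2 * (4 ^ k * hs X))) := by
    refine (hs_sum _ _).trans (Finset.sum_le_sum fun k _ => ?_)
    rw [hs_smul]
    refine mul_le_mul_of_nonneg_left ?_ (abs_nonneg _)
    refine (hs_sum _ _).trans ?_
    have h2 : ∀ a ∈ Finset.range (k + 1),
        hs (cheb a A * X * cheb (k - a) A + cheb a A * Xᵀ * cheb (k - a) A) ≤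
          2 * (4 ^ k * hs X) := by
      intro a ha
      have hak : a ≤ k := Nat.lt_succ_iff.1 (Finset.mem_range.1 ha)
      have := hs_add (cheb a A * X * cheb (k - a) A) (cheb a A * Xᵀ * cheb (k - a) A)
      linarith [key k a X hak rfl, key k a Xᵀ hak (hs_transpose X)]
    refine (Finset.sum_le_card_nsmul _ _ _ h2).trans (le_of_eq ?_)
    rw [Finset.card_range, nsmul_eq_mul]
    push_cast
    ring
  have h2 : ∑ k ∈ Finset.range L, |c k| * ((k + 1) * (2 * (4 ^ k * hs X))) =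
      2 * ((∑ k ∈ Finset.range L, |c k| * ((k + 1) * 4 ^ k)) * hs X) := by
    rw [Finset.sum_mul, Finset.mul_sum]
    refine Finset.sum_congr rfl fun k _ => ?_
    ring
  linarith

theorem hs_hm (L : ℕ) (c : ℕ → ℝ) {A B : Matrix (Fin N) (Fin N) ℝ} (hA : ‖A‖ ≤ 3)
    (hB : ‖B‖ ≤ 3) : hs (hm L c A - hm L c B) ≤
      (∑ k ∈ Finset.range L, |c k| * ((k + 1) * 4 ^ (k + 1))) * hs (A - B) := by
  have e : hm L c A - hm L c B =
      ∑ k ∈ Finset.range L, c k • (cheb (k + 1) A - cheb (k + 1) B) := by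
    unfold hm
    rw [← Finset.sum_sub_distrib]
    refine Finset.sum_congr rfl fun k _ => ?_
    rw [smul_sub]
  rw [e, Finset.sum_mul]
  refine (hs_sum _ _).trans (Finset.sum_le_sum fun k _ => ?_)
  rw [hs_smul, mul_assoc]
  refine mul_le_mul_of_nonneg_left ?_ (abs_nonneg _)
  have := (hs_cheb_sub hA hB k).2
  push_cast at this
  exact this

theorem stE : Vale.Agent.P146.R2.H729.Tr.StE := by
  intro L c
  set C₁ : ℝ := ∑ k ∈ Finset.range L, |c k| * ((k + 1) * 4 ^ k) with hC₁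
  set C₂ : ℝ := ∑ k ∈ Finset.range L, |c k| * ((k + 1) * 4 ^ (k + 1)) with hC₂
  refine ⟨C₁ ^ 2 + C₂ ^ 2 + 1, by positivity, fun N A B _ _ hA hB => ⟨fun x => ?_, ?_⟩⟩
  · have h1 := hs_YY L c hA (Matrix.of fun i j => x (i, j))
    have h2 := pow_le_pow_left₀ (hs_nonneg _) h1 2
    rw [mul_pow, hs_sq, hs_sq] at h2
    have h3 : ∑ e, (KK L c A *ᵥ x) e ^ 2 =
        ∑ i, ∑ j, YY L c A (Matrix.of fun i j => x (i, j)) i j ^ 2 := by
      rw [Fintype.sum_prod_type]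
      refine Finset.sum_congr rfl fun i _ => Finset.sum_congr rfl fun j _ => ?_
      rw [KK_mulVec]
    have h4 : ∑ i, ∑ j, (Matrix.of fun i j => x (i, j)) i j ^ 2 = ∑ e : Ix N, x e ^ 2 := by
      rw [Fintype.sum_prod_type]
      rfl
    rw [h3]
    rw [h4] at h2
    have h5 : 0 ≤ ∑ e : Ix N, x e ^ 2 := Finset.sum_nonneg fun _ _ => sq_nonneg _
    have h6 : 0 ≤ (C₂ ^ 2 + 1) * ∑ e : Ix N, x e ^ 2 := by positivity
    refine h2.trans ?_
    have h7 : (C₁ ^ 2 + C₂ ^ 2 + 1) * ∑ e : Ix N, x e ^ 2 =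
        C₁ ^ 2 * ∑ e : Ix N, x e ^ 2 + (C₂ ^ 2 + 1) * ∑ e : Ix N, x e ^ 2 := by ring
    rw [h7]
    linarith
  · have h1 := hs_hm L c hA hB
    have h2 := pow_le_pow_left₀ (hs_nonneg _) h1 2
    rw [mul_pow, hs_sq, hs_sq] at h2
    simp only [Matrix.sub_apply] at h2
    have h5 : 0 ≤ ∑ i, ∑ j, (A i j - B i j) ^ 2 :=
      Finset.sum_nonneg fun _ _ => Finset.sum_nonneg fun _ _ => sq_nonneg _
    have h6 : 0 ≤ (C₁ ^ 2 + 1) * ∑ i, ∑ j, (A i j - B i j) ^ 2 := by positivity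
    refine h2.trans ?_
    have h7 : (C₁ ^ 2 + C₂ ^ 2 + 1) * ∑ i, ∑ j, (A i j - B i j) ^ 2 =
        C₂ ^ 2 * ∑ i, ∑ j, (A i j - B i j) ^ 2 +
          (C₁ ^ 2 + 1) * ∑ i, ∑ j, (A i j - B i j) ^ 2 := by ring
    rw [h7]
    linarith

end Vale.Agent.P146.R2.H533
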