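import Vale.Agent.P146.H605.Defs2

/-!
# P146: the upper bound for the lower tail, from a Laplace bound
-/

open MeasureTheory ProbabilityTheory Filter Topology

namespace Vale.Agent.P146.R2.H533

open Vale.Agent.P146 Vale.Agent.P146.H605

variable {β : ℝ}

/-- Chernoff bound for the lower tail. -/
lemma chernoff {n : ℕ}
    (hint : ∀ x : ℝ, Integrable (fun g => Real.exp (x * freeEnergy n β g)) (disorder n))
    {x u B : ℝ} (hx : 0 ≤ x)
    (hB : ∫ g, Real.exp (-(x * (freeEnergy n β g - ∫ h, freeEnergy n β h ∂(disorder n))))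
      ∂(disorder n) ≤ Real.exp B) :
    (disorder n).real {g | freeEnergy n β g ≤ ∫ h, freeEnergy n β h ∂(disorder n) - u} ≤
      Real.exp (B - x * u) := by
  have : IsProbabilityMeasure (disorder n) := by
    unfold disorder
    infer_instance
  obtain ⟨E, hE⟩ : ∃ E, E = ∫ h, freeEnergy n β h ∂(disorder n) := ⟨_, rfl⟩
  rw [← hE] at hB ⊢
  have h1 : Integrable (fun g => Real.exp ((-x) * (freeEnergy n β g - E))) (disorder n) := by
    have h2 := (hint (-x)).const_mul (Real.exp (x * E))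
    refine h2.congr (Filter.Eventually.of_forall fun g => ?_)
    simp only
    rw [← Real.exp_add]
    congr 1
    ring
  have h2 := measure_le_le_exp_mul_mgf (μ := disorder n) (X := fun g => freeEnergy n β g - E)
    (-u) (neg_nonpos.2 hx) h1
  have h3 : {g | freeEnergy n β g ≤ E - u} = {g | freeEnergy n β g - E ≤ -u} := by
    ext g
    simp only [Set.mem_ofPred_eq]
    constructor <;> intro h <;> linarith
  rw [h3]
  refine h2.trans ?_
  have h4 : mgf (fun g => freeEnergy n β g - E) (disorder n) (-x) ≤ Real.exp B := by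
    refine le_trans (le_of_eq ?_) hB
    unfold mgf
    refine integral_congr_ae (Filter.Eventually.of_forall fun g => ?_)
    simp only
    congr 1
    ring
  have h5 := mul_le_mul_of_nonneg_left h4 (Real.exp_pos (-(-x) * -u)).le
  refine h5.trans (le_of_eq ?_)
  rw [← Real.exp_add]
  congr 1
  ring

/-- **The upper bound for the lower tail.** -/
theorem upper_of (hβ : 0 < β) {p : ℝ}
    (hint : ∀ (n : ℕ) (x : ℝ),
      Integrable (fun g => Real.exp (x * freeEnergy n β g)) (disorder n))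
    (LB : ∀ n : ℕ, 1 ≤ n → ∀ t ∈ Set.Icc (0 : ℝ) 1, ∀ x : ℝ, 0 ≤ x →
      ∫ g, Real.exp (-(x * (freeEnergy n β g - ∫ h, freeEnergy n β h ∂(disorder n))))
        ∂(disorder n) ≤
      Real.exp (x * ((1 - t) * (β ^ 2 * n / 4)) + x ^ 2 / 2 * crossCov n β t))
    {c : ℝ} (hc : 0 < c)
    (hK : ∀ᶠ n : ℕ in atTop, ∀ t : ℝ, 0 ≤ t → (n : ℝ) ^ (-c) ≤ 1 - t →
      crossCov n β t ≤ β ^ 2 / 2 * ((1 + (n : ℝ) ^ (-c)) * t / (1 - t) ^ 2 - t))
    {C : ℝ} (hM : ∀ n : ℕ, 1 ≤ n →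
      n * p - C * (n : ℝ) ^ (7 / 8 : ℝ) ≤ ∫ g, freeEnergy n β g ∂(disorder n)) :
    ∀ᶠ n : ℕ in atTop, ∀ s : ℝ, (n : ℝ) ^ (-(min (c / 2) (1 / 16)) : ℝ) ≤ s → s ≤ β ^ 2 →
      (disorder n).real {g | freeEnergy n β g ≤ n * (p - s)} ≤
        Real.exp (-(1 / (32 * β ^ 6) * s ^ 4 * (n : ℝ) ^ 2)) := by
  obtain ⟨a, ha⟩ : ∃ a, a = min (c / 2) (1 / 16) := ⟨_, rfl⟩
  rw [← ha]
  have ha0 : 0 < a := by rw [ha]; exact lt_min (by linarith) (by norm_num)
  have ha1 : a ≤ c / 2 := by rw [ha]; exact min_le_left _ _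
  have ha2 : a ≤ 1 / 16 := by rw [ha]; exact min_le_right _ _
  have hβ2 : 0 < β ^ 2 := by positivity
  have l1 : Tendsto (fun n : ℕ => (n : ℝ) ^ (c / 2)) atTop atTop :=
    (tendsto_rpow_atTop (by linarith)).comp tendsto_natCast_atTop_atTop
  have l2 : Tendsto (fun n : ℕ => (n : ℝ) ^ (1 / 16 : ℝ)) atTop atTop :=
    (tendsto_rpow_atTop (by norm_num)).comp tendsto_natCast_atTop_atTop
  filter_upwards [hK, l1.eventually_ge_atTop (β ^ 2), l2.eventually_ge_atTop (2 * C),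
    eventually_ge_atTop 1] with n hKn h1 h2 hn s hs hsβ
  have hn0 : (0 : ℝ) < n := by exact_mod_cast hn
  have hn1 : (1 : ℝ) ≤ n := by exact_mod_cast hn
  have hs0 : 0 < s := lt_of_lt_of_le (Real.rpow_pos_of_pos hn0 _) hs
  -- the mean
  have hmean : n * (p - s) ≤ ∫ g, freeEnergy n β g ∂(disorder n) - n * s / 2 := by
    have e1 := hM n hn
    have e2 : (n : ℝ) ^ (-(1 / 16) : ℝ) ≤ s :=
      (Real.rpow_le_rpow_of_exponent_le hn1 (by linarith)).trans hs
    have e3 : C * (n : ℝ) ^ (7 / 8 : ℝ) ≤ n * s / 2 := by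
      have e4 : (n : ℝ) ^ (1 / 16 : ℝ) * (n : ℝ) ^ (7 / 8 : ℝ) =
          n * (n : ℝ) ^ (-(1 / 16) : ℝ) := by
        rw [← Real.rpow_add hn0]
        nth_rewrite 2 [← Real.rpow_one (n : ℝ)]
        rw [← Real.rpow_add hn0]
        norm_num
      have e5 : 2 * C * (n : ℝ) ^ (7 / 8 : ℝ) ≤
          (n : ℝ) ^ (1 / 16 : ℝ) * (n : ℝ) ^ (7 / 8 : ℝ) :=
        mul_le_mul_of_nonneg_right h2 (Real.rpow_nonneg hn0.le _)
      have e6 := mul_le_mul_of_nonneg_left e2 hn0.le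
      linarith
    linarith
  -- the correlation
  obtain ⟨t, ht⟩ : ∃ t, t = 1 - s / β ^ 2 := ⟨_, rfl⟩
  have hτ : 1 - t = s / β ^ 2 := by rw [ht]; ring
  have hτ0 : 0 < 1 - t := by rw [hτ]; positivity
  have ht0 : 0 ≤ t := by
    rw [ht, sub_nonneg, div_le_one hβ2]
    exact hsβ
  have ht1 : t ≤ 1 := by linarith
  have hKt := hKn t ht0 (by
    rw [hτ, le_div_iff₀ hβ2]
    have e1 : (n : ℝ) ^ (-(c / 2)) ≤ s :=
      (Real.rpow_le_rpow_of_exponent_le hn1 (by linarith)).trans hs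
    have e2 : (n : ℝ) ^ (-c) * β ^ 2 ≤ (n : ℝ) ^ (-c) * (n : ℝ) ^ (c / 2) :=
      mul_le_mul_of_nonneg_left h1 (Real.rpow_nonneg hn0.le _)
    rw [← Real.rpow_add hn0] at e2
    have e3 : -c + c / 2 = -(c / 2) := by ring
    rw [e3] at e2
    linarith)
  have hnc : (n : ℝ) ^ (-c) ≤ 1 := Real.rpow_le_one_of_one_le_of_nonpos hn1 (by linarith)
  have hnc0 : 0 ≤ (n : ℝ) ^ (-c) := Real.rpow_nonneg hn0.le _
  have hKb : crossCov n β t ≤ β ^ 6 / s ^ 2 := by
    refine hKt.trans ?_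
    have e1 : (1 + (n : ℝ) ^ (-c)) * t ≤ 2 := by nlinarith
    have e2 : (1 + (n : ℝ) ^ (-c)) * t / (1 - t) ^ 2 ≤ 2 / (1 - t) ^ 2 :=
      div_le_div_of_nonneg_right e1 (by positivity)
    have e3 : β ^ 2 / 2 * ((1 + (n : ℝ) ^ (-c)) * t / (1 - t) ^ 2 - t) ≤
        β ^ 2 / 2 * (2 / (1 - t) ^ 2) :=
      mul_le_mul_of_nonneg_left (by linarith) (by positivity)
    refine e3.trans (le_of_eq ?_)
    rw [hτ]
    field_simp
  -- the choice of `x`
  obtain ⟨K, hKd⟩ : ∃ K, K = β ^ 6 / s ^ 2 := ⟨_, rfl⟩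
  rw [← hKd] at hKb
  have hK0 : 0 < K := by rw [hKd]; positivity
  obtain ⟨u, hu⟩ : ∃ u, u = n * s / 2 := ⟨_, rfl⟩
  have hu0 : 0 < u := by rw [hu]; positivity
  obtain ⟨x, hx⟩ : ∃ x, x = u / (2 * K) := ⟨_, rfl⟩
  have hx0 : 0 ≤ x := by rw [hx]; positivity
  have h3 := chernoff (hint n) (u := u) hx0 (LB n hn t ⟨ht0, ht1⟩ x hx0)
  have h4 : (disorder n).real {g | freeEnergy n β g ≤ n * (p - s)} ≤
      (disorder n).real {g | freeEnergy n β g ≤ ∫ h, freeEnergy n β h ∂(disorder n) - u} := by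
    have : IsProbabilityMeasure (disorder n) := by
      unfold disorder
      infer_instance
    refine measureReal_mono fun g hg => ?_
    simp only [Set.mem_ofPred_eq] at hg ⊢
    rw [hu]
    linarith
  refine h4.trans (h3.trans (Real.exp_le_exp.2 ?_))
  have h5 : x ^ 2 / 2 * crossCov n β t ≤ x ^ 2 / 2 * K :=
    mul_le_mul_of_nonneg_left hKb (by positivity)
  have h6 : x * ((1 - t) * (β ^ 2 * n / 4)) = x * u / 2 := by
    rw [hτ, hu]
    field_simp
    ring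
  have h7 : x ^ 2 / 2 * K = x * u / 4 := by
    rw [hx]
    field_simp
    ring
  have h8 : x * u / 4 = 1 / (32 * β ^ 6) * s ^ 4 * (n : ℝ) ^ 2 := by
    rw [hx, hu, hKd]
    field_simp
    ring
  rw [← h8]
  linarith

/-- The lower tail at the scale of the standard deviation. -/
theorem gauss_of {n : ℕ} (hint : ∀ x : ℝ,
      Integrable (fun g => Real.exp (x * freeEnergy n β g)) (disorder n))
    (LB : ∀ t ∈ Set.Icc (0 : ℝ) 1, ∀ x : ℝ, 0 ≤ x →
      ∫ g, Real.exp (-(x * (freeEnergy n β g - ∫ h, freeEnergy n β h ∂(disorder n))))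
        ∂(disorder n) ≤
      Real.exp (x * ((1 - t) * (β ^ 2 * n / 4)) + x ^ 2 / 2 * crossCov n β t))
    (h1 : crossCov n β 1 = Var[freeEnergy n β; disorder n])
    (hV : 0 < Var[freeEnergy n β; disorder n]) {u : ℝ} (hu : 0 ≤ u) :
    (disorder n).real {g | freeEnergy n β g ≤ ∫ h, freeEnergy n β h ∂(disorder n) -
      u * Real.sqrt (Var[freeEnergy n β; disorder n])} ≤ Real.exp (-(u ^ 2 / 2)) := by
  obtain ⟨V, hVd⟩ : ∃ V, V = Var[freeEnergy n β; disorder n] := ⟨_, rfl⟩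
  rw [← hVd] at h1 hV ⊢
  have hs : 0 < Real.sqrt V := Real.sqrt_pos.2 hV
  have hs2 : Real.sqrt V ^ 2 = V := Real.sq_sqrt hV.le
  have hx0 : 0 ≤ u / Real.sqrt V := div_nonneg hu hs.le
  have h3 := chernoff hint (u := u * Real.sqrt V) hx0
    (LB 1 ⟨zero_le_one, le_rfl⟩ (u / Real.sqrt V) hx0)
  refine h3.trans (Real.exp_le_exp.2 (le_of_eq ?_))
  rw [h1]
  have e1 : u / Real.sqrt V * (u * Real.sqrt V) = u ^ 2 := by
    field_simp
  have e2 : (u / Real.sqrt V) ^ 2 / 2 * V = u ^ 2 / 2 := by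
    rw [div_pow, hs2]
    field_simp
  rw [e1, e2]
  ring

end Vale.Agent.P146.R2.H533
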