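import Vale.Agent.P146.R2.H533.Up
import Vale.Agent.Results.P146.OptimalChaos
import Vale.Agent.P146.H605.Noise

/-!
# P146: the upper bound for the lower tail, from a Laplace bound, at every `β > 1`
-/

open MeasureTheory ProbabilityTheory Filter Topology

namespace Vale.Agent.P146.R2.H533

open Vale.Agent.P146 Vale.Agent.P146.H605

/-- **The upper bound for the lower tail.** -/
theorem upper {β : ℝ} (hβ : 1 < β) {p : ℝ}
    (hp : Tendsto (fun n : ℕ => (∫ g, freeEnergy n β g ∂(disorder n)) / n) atTop (𝓝 p))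
    (LB : ∀ n : ℕ, 1 ≤ n → ∀ t ∈ Set.Icc (0 : ℝ) 1, ∀ x : ℝ, 0 ≤ x →
      ∫ g, Real.exp (-(x * (freeEnergy n β g - ∫ h, freeEnergy n β h ∂(disorder n))))
        ∂(disorder n) ≤
      Real.exp (x * ((1 - t) * (β ^ 2 * n / 4)) + x ^ 2 / 2 * crossCov n β t)) :
    ∃ c k : ℝ, 0 < c ∧ 0 < k ∧ ∀ᶠ n : ℕ in atTop, ∀ s : ℝ, (n : ℝ) ^ (-c) ≤ s → s ≤ β ^ 2 →
      (disorder n).real {g | freeEnergy n β g ≤ n * (p - s)} ≤
        Real.exp (-(k * s ^ 4 * (n : ℝ) ^ 2)) := by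
  obtain ⟨c, hc, h⟩ := Vale.Agent.Results.P146.OptimalChaos.result
  obtain ⟨c₀, Λ, -, -, hS⟩ := Vale.Agent.Results.P146.SharpRate.result
  obtain ⟨-, p', C, a, b, -, -, hp', -, hall, -⟩ := hS β hβ
  have hpp : p' = p := tendsto_nhds_unique hp' hp
  subst hpp
  refine ⟨min (c / 2) (1 / 16), 1 / (32 * β ^ 6), lt_min (by linarith) (by norm_num),
    by positivity, ?_⟩
  exact upper_of (by linarith) (fun n x => Vale.Agent.P146.Sx.integrable_exp n β x) LB hc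
    ((h β hβ).mono fun n hn t ht hτ => (hn.2.1 t ht hτ).2.1)
    (fun n hn => (hall n hn).2.2.2.2.2.1)

/-- The lower tail at the scale of the standard deviation. -/
theorem gauss {n : ℕ} (hn : 1 ≤ n) {β : ℝ}
    (LB : ∀ t ∈ Set.Icc (0 : ℝ) 1, ∀ x : ℝ, 0 ≤ x →
      ∫ g, Real.exp (-(x * (freeEnergy n β g - ∫ h, freeEnergy n β h ∂(disorder n))))
        ∂(disorder n) ≤
      Real.exp (x * ((1 - t) * (β ^ 2 * n / 4)) + x ^ 2 / 2 * crossCov n β t))
    (hV : 0 < Var[freeEnergy n β; disorder n]) {u : ℝ} (hu : 0 ≤ u) :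
    (disorder n).real {g | freeEnergy n β g ≤ ∫ h, freeEnergy n β h ∂(disorder n) -
      u * Real.sqrt (Var[freeEnergy n β; disorder n])} ≤ Real.exp (-(u ^ 2 / 2)) :=
  gauss_of (fun x => Vale.Agent.P146.Sx.integrable_exp n β x) LB (crossCov_one n β hn) hV hu

end Vale.Agent.P146.R2.H533
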