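import Vale.Agent.P146.Defs

/-!
# P146: the variance of the free energy is positive for `n ≥ 2`
-/

open MeasureTheory ProbabilityTheory Filter Topology

namespace Vale.Agent.P146.R2.H533

open Vale.Agent.P146

lemma continuous_freeEnergy' (n : ℕ) (β : ℝ) : Continuous (freeEnergy n β) := by
  unfold freeEnergy
  refine Continuous.log ?_ fun g => ?_
  · unfold partitionFn hamiltonian
    fun_prop
  · unfold partitionFn
    exact (Finset.sum_pos (fun σ _ => Real.exp_pos _) Finset.univ_nonempty).ne'

lemma partitionFn_pos' (n : ℕ) (β : ℝ) (g : Pair n → ℝ) : 0 < partitionFn n β g := by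
  unfold partitionFn
  exact Finset.sum_pos (fun σ _ => Real.exp_pos _) Finset.univ_nonempty

lemma openPos_disorder (n : ℕ) : (disorder n).IsOpenPosMeasure := by
  have : (gaussianReal 0 1).IsOpenPosMeasure :=
    (gaussianReal_absolutelyContinuous' (0 : ℝ) one_ne_zero).isOpenPosMeasure
  unfold disorder
  infer_instance

/-- **The variance is positive.** -/
theorem var_pos_of {n : ℕ} (hn : 2 ≤ n) {β : ℝ} (hβ : β ≠ 0)
    (hint : ∀ x : ℝ, Integrable (fun g => Real.exp (x * freeEnergy n β g)) (disorder n)) :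
    0 < Var[freeEnergy n β; disorder n] := by
  have : IsProbabilityMeasure (disorder n) := by
    unfold disorder
    infer_instance
  have := openPos_disorder n
  refine lt_of_le_of_ne (variance_nonneg _ _) fun h0 => ?_
  have hmem : MemLp (freeEnergy n β) 2 (disorder n) := by
    refine memLp_of_mem_interior_integrableExpSet ?_ 2
    have : integrableExpSet (freeEnergy n β) (disorder n) = Set.univ := by
      ext x
      simp only [integrableExpSet, Set.mem_ofPred_eq, Set.mem_univ, iff_true]
      exact hint x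
    rw [this, interior_univ]
    exact Set.mem_univ _
  have hae : freeEnergy n β =ᵐ[disorder n] fun _ => ∫ g, freeEnergy n β g ∂(disorder n) := by
    have h1 : evariance (freeEnergy n β) (disorder n) = 0 := by
      have h2 : (evariance (freeEnergy n β) (disorder n)).toReal = 0 := h0.symm
      rcases (ENNReal.toReal_eq_zero_iff _).1 h2 with h3 | h3
      · exact h3
      · exact absurd h3 hmem.evariance_ne_top
    exact (evariance_eq_zero_iff (continuous_freeEnergy' n β).aemeasurable).1 h1
  have heq := (Continuous.ae_eq_iff_eq (disorder n) (continuous_freeEnergy' n β)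
    continuous_const).1 hae
  have hZ : ∀ g, partitionFn n β g = partitionFn n β 0 := by
    intro g
    have h1 := congrFun heq g
    have h2 := congrFun heq 0
    have h3 : freeEnergy n β g = freeEnergy n β 0 := h1.trans h2.symm
    exact Real.log_injOn_pos (partitionFn_pos' n β g) (partitionFn_pos' n β 0) h3
  have i0 : 0 < n := by omega
  have i1 : 1 < n := by omega
  obtain ⟨p, hp⟩ : ∃ p : Pair n, p = ⟨(⟨0, i0⟩, ⟨1, i1⟩), by simp [Fin.lt_def]⟩ := ⟨_, rfl⟩
  obtain ⟨g, hg⟩ : ∃ g : Pair n → ℝ, g = Pi.single p 1 := ⟨_, rfl⟩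
  have hH : ∀ σ : Fin n → ℤˣ, hamiltonian n g σ ≠ 0 := by
    intro σ
    unfold hamiltonian
    have h1 : ∑ q : Pair n, g q * ((σ q.1.1 : ℤ) : ℝ) * ((σ q.1.2 : ℤ) : ℝ) =
        ((σ p.1.1 : ℤ) : ℝ) * ((σ p.1.2 : ℤ) : ℝ) := by
      rw [Finset.sum_eq_single p]
      · rw [hg, Pi.single_eq_same, one_mul]
      · intro q _ hq
        rw [hg, Pi.single_eq_of_ne hq, zero_mul, zero_mul]
      · intro h
        exact absurd (Finset.mem_univ p) h
    rw [h1]
    have h2 : (0 : ℝ) < n := by exact_mod_cast i0
    have h3 : ∀ u : ℤˣ, ((u : ℤ) : ℝ) ≠ 0 := by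
      intro u
      rcases Int.units_eq_one_or u with h | h <;> rw [h] <;> norm_num
    exact mul_ne_zero (by positivity) (mul_ne_zero (h3 _) (h3 _))
  have hneg : ∀ σ : Fin n → ℤˣ, hamiltonian n (-g) σ = -hamiltonian n g σ := by
    intro σ
    unfold hamiltonian
    rw [← mul_neg, ← Finset.sum_neg_distrib]
    congr 1
    refine Finset.sum_congr rfl fun q _ => ?_
    rw [Pi.neg_apply]
    ring
  have hzero : ∀ σ : Fin n → ℤˣ, hamiltonian n 0 σ = 0 := by
    intro σ
    unfold hamiltonian
    simp
  have hsum : ∑ σ : Fin n → ℤˣ, (Real.exp (β * hamiltonian n g σ) +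
      Real.exp (β * hamiltonian n (-g) σ) - 2 * Real.exp (β * hamiltonian n 0 σ)) = 0 := by
    rw [Finset.sum_sub_distrib, Finset.sum_add_distrib, ← Finset.mul_sum]
    have e1 := hZ g
    have e2 := hZ (-g)
    unfold partitionFn at e1 e2
    rw [e1, e2]
    ring
  have hpos : 0 < ∑ σ : Fin n → ℤˣ, (Real.exp (β * hamiltonian n g σ) +
      Real.exp (β * hamiltonian n (-g) σ) - 2 * Real.exp (β * hamiltonian n 0 σ)) := by
    refine Finset.sum_pos (fun σ _ => ?_) Finset.univ_nonempty
    rw [hneg, hzero, mul_zero, Real.exp_zero]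
    have h1 := Real.one_lt_cosh.2 (mul_ne_zero hβ (hH σ))
    rw [Real.cosh_eq] at h1
    have h2 : β * -hamiltonian n g σ = -(β * hamiltonian n g σ) := by ring
    rw [h2]
    linarith
  exact hpos.ne' hsum

end Vale.Agent.P146.R2.H533
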