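import Vale.Agent.P146.R2.H952.XDef
import Vale.Agent.P146.R3.H49.SC

/-! # P146: row H1 (the Stieltjes transform near the edge) -/

open MeasureTheory Set

namespace Vale.Agent.P146.R2.H533.X

open Vale.Agent.P146.R3 (sc)

/-- the algebra of the weight: `(2/π) sin² θ = u g`, `u = 2 - 2 cos θ`, `g = (1 + cos θ)/π` -/
theorem weight (θ : ℝ) : 2 / Real.pi * Real.sin θ ^ 2 =
    (2 - 2 * Real.cos θ) * ((1 + Real.cos θ) / Real.pi) := by
  rw [Real.sin_sq]
  ring

theorem caseA {u g c τ ε D : ℝ} (hu : 0 < u) (hg : 0 ≤ g) (hτ : τ < c) (hc : c - τ ≤ 1)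
    (hε : 0 < ε) (hue : u ≤ ε) (hD : u + (c - τ) * ε ≤ D) :
    u * g * D⁻¹ ≤ g - (c - τ) / 2 * g := by
  have h1 : 0 < c - τ := sub_pos.2 hτ
  have h0 : 0 < u + (c - τ) * ε := by positivity
  have hDp : 0 < D := h0.trans_le hD
  have h2 : u ≤ (1 - (c - τ) / 2) * D := by
    have h3 : u ≤ (1 - (c - τ) / 2) * (u + (c - τ) * ε) := by
      have h4 : (c - τ) * ε ≤ 1 * ε := mul_le_mul_of_nonneg_right hc hε.le
      nlinarith
    refine h3.trans (mul_le_mul_of_nonneg_left hD ?_)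
    linarith
  rw [← div_eq_mul_inv, div_le_iff₀ hDp]
  calc u * g ≤ (1 - (c - τ) / 2) * D * g := mul_le_mul_of_nonneg_right h2 hg
    _ = (g - (c - τ) / 2 * g) * D := by ring

theorem caseB {u g τ ε D θ : ℝ} (hg : 0 ≤ g) (hg2 : g ≤ 2 / Real.pi) (hτ0 : 0 < τ)
    (hτ : τ ≤ 1 / 2) (hε : 0 < ε) (hue : ε < u) (hθ : 0 < θ) (hu : 4 * θ ^ 2 / Real.pi ^ 2 ≤ u)
    (hD : u - τ * ε ≤ D) : u * g * D⁻¹ ≤ g + 6 * τ * ε * (θ ^ 2)⁻¹ := by
  have hp := Real.pi_pos
  have hp4 : Real.pi ≤ 4 := Real.pi_le_four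
  have hu0 : 0 < u := hε.trans hue
  have h1 : τ * ε ≤ 1 / 2 * u := by
    have : τ * ε ≤ 1 / 2 * ε := mul_le_mul_of_nonneg_right hτ hε.le
    linarith
  have h2 : 0 < u - τ * ε := by linarith
  have hDp : 0 < D := h2.trans_le hD
  have hθ2 : 0 < θ ^ 2 := by positivity
  -- first `u g / D ≤ u g / (u - τ ε) ≤ g + 2 g τ ε / u`
  have h3 : u * g * D⁻¹ ≤ u * g * (u - τ * ε)⁻¹ :=
    mul_le_mul_of_nonneg_left (inv_anti₀ h2 hD) (by positivity)
  have h4 : u * g * (u - τ * ε)⁻¹ ≤ g + 2 * g * τ * ε / u := by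
    rw [← div_eq_mul_inv, div_le_iff₀ h2]
    have e : (g + 2 * g * τ * ε / u) * (u - τ * ε) =
        u * g + (g * τ * ε) * (1 - 2 * (τ * ε) / u) := by
      field_simp
      ring
    rw [e]
    have h5 : 0 ≤ 1 - 2 * (τ * ε) / u := by
      rw [sub_nonneg, div_le_one hu0]
      linarith
    have h6 : 0 ≤ (g * τ * ε) * (1 - 2 * (τ * ε) / u) := by positivity
    linarith
  have h7 : 2 * g * τ * ε / u ≤ 6 * τ * ε * (θ ^ 2)⁻¹ := by
    rw [div_le_iff₀ hu0]
    have h8 : 4 * θ ^ 2 / Real.pi ^ 2 * (6 * τ * ε * (θ ^ 2)⁻¹) ≤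
        6 * τ * ε * (θ ^ 2)⁻¹ * u := by
      rw [mul_comm]
      exact mul_le_mul_of_nonneg_left hu (by positivity)
    refine le_trans ?_ h8
    have e : 4 * θ ^ 2 / Real.pi ^ 2 * (6 * τ * ε * (θ ^ 2)⁻¹) = 24 / Real.pi ^ 2 * (τ * ε) := by
      field_simp
      ring
    rw [e]
    have h9 : 2 * g ≤ 24 / Real.pi ^ 2 := by
      have h10 : 2 * (2 / Real.pi) ≤ 24 / Real.pi ^ 2 := by
        rw [le_div_iff₀ (by positivity)]
        have : 2 * (2 / Real.pi) * Real.pi ^ 2 = 4 * Real.pi := by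
          field_simp
          ring
        rw [this]
        linarith
      linarith
    have h11 := mul_le_mul_of_nonneg_right h9 (by positivity : 0 ≤ τ * ε)
    linarith
  linarith

theorem integral_g : ∫ θ in (0:ℝ)..Real.pi, (1 + Real.cos θ) / Real.pi = 1 := by
  rw [intervalIntegral.integral_div, intervalIntegral.integral_add
    intervalIntegrable_const (Real.continuous_cos.intervalIntegrable _ _), integral_cos,
    intervalIntegral.integral_const]
  simp [Real.pi_ne_zero]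

theorem integral_sq_inv {r : ℝ} (hr : 0 < r) (hrp : r ≤ Real.pi) :
    ∫ θ in r..Real.pi, (θ ^ 2)⁻¹ ≤ r⁻¹ := by
  have h1 : ∫ θ in r..Real.pi, (θ ^ 2)⁻¹ = -Real.pi⁻¹ - -r⁻¹ := by
    refine intervalIntegral.integral_eq_sub_of_hasDerivAt (f := fun θ : ℝ => -θ⁻¹) ?_ ?_
    · intro x hx
      rw [uIcc_of_le hrp] at hx
      have hx0 : x ≠ 0 := (hr.trans_le hx.1).ne'
      have := (hasDerivAt_inv hx0).neg
      rw [neg_neg] at this
      exact this
    · refine ContinuousOn.intervalIntegrable ?_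
      rw [uIcc_of_le hrp]
      refine ContinuousOn.inv₀ (by fun_prop) fun x hx => ?_
      exact pow_ne_zero 2 (hr.trans_le hx.1).ne'
  rw [h1]
  have := inv_pos.2 Real.pi_pos
  linarith

theorem stH1 : Vale.Agent.P146.R2.H952.X.StH1 := by
  intro c hc hc1
  refine ⟨c / 100, c / 20, by positivity, by linarith, by positivity, ?_⟩
  intro ε hε hε1 h hh h0 h1
  set τ : ℝ := c / 100 with hτ
  have hτ0 : 0 < τ := by positivity
  have hτc : τ < c := by rw [hτ]; linarith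
  have hcτ : c - τ ≤ 1 := by linarith
  have hτ2 : τ ≤ 1 / 2 := by rw [hτ]; linarith
  have hp := Real.pi_pos
  have hp3 := Real.pi_gt_three
  have hp4 : Real.pi ≤ 4 := Real.pi_le_four
  set r : ℝ := √ε with hr
  have hr0 : 0 < r := Real.sqrt_pos.2 hε
  have hr2 : r ^ 2 = ε := Real.sq_sqrt hε.le
  have hr1 : r ≤ 1 := by
    rw [hr]
    exact Real.sqrt_le_one.2 hε1
  have hrp : r ≤ Real.pi := by linarith
  rw [R3.H49.integral_sc (f := fun x => (2 - τ * ε - x + h x)⁻¹)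
    ((by fun_prop : Measurable fun x => 2 - τ * ε - x + h x).inv)]
  -- the denominator
  set D : ℝ → ℝ := fun θ => 2 - τ * ε - 2 * Real.cos θ + h (2 * Real.cos θ) with hD
  have hDc : Continuous D := by
    rw [hD]
    have : Continuous fun θ : ℝ => h (2 * Real.cos θ) := hh.comp (by fun_prop)
    fun_prop
  have hmem : ∀ θ : ℝ, 2 * Real.cos θ ∈ Icc (-2 : ℝ) 2 := fun θ =>
    ⟨by linarith [Real.neg_one_le_cos θ], by linarith [Real.cos_le_one θ]⟩
  have hDA : ∀ θ : ℝ, 2 - 2 * Real.cos θ ≤ ε → (2 - 2 * Real.cos θ) + (c - τ) * ε ≤ D θ := by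
    intro θ hθ
    have h2 := h1 (2 * Real.cos θ) ⟨by linarith, (hmem θ).2⟩
    simp only [hD]
    linarith
  have hDB : ∀ θ : ℝ, (2 - 2 * Real.cos θ) - τ * ε ≤ D θ := by
    intro θ
    have h2 := h0 (2 * Real.cos θ) (hmem θ)
    simp only [hD]
    linarith
  have hDpos : ∀ θ : ℝ, 0 < D θ := by
    intro θ
    have hu : 0 ≤ 2 - 2 * Real.cos θ := by linarith [Real.cos_le_one θ]
    rcases le_or_gt (2 - 2 * Real.cos θ) ε with h2 | h2
    · have h3 := hDA θ h2
      have h4 : 0 < (c - τ) * ε := mul_pos (sub_pos.2 hτc) hε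
      linarith
    · have h3 := hDB θ
      have h4 : τ * ε ≤ 1 / 2 * ε := mul_le_mul_of_nonneg_right hτ2 hε.le
      linarith
  set F : ℝ → ℝ := fun θ => 2 / Real.pi * Real.sin θ ^ 2 * (D θ)⁻¹ with hF
  have hFc : Continuous F := by
    rw [hF]
    exact (by fun_prop : Continuous fun θ : ℝ => 2 / Real.pi * Real.sin θ ^ 2).mul
      (hDc.inv₀ fun θ => (hDpos θ).ne')
  have hFe : ∀ θ, F θ = (2 - 2 * Real.cos θ) * ((1 + Real.cos θ) / Real.pi) * (D θ)⁻¹ := by
    intro θ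
    simp only [hF]
    rw [weight]
  have hg0 : ∀ θ : ℝ, 0 ≤ (1 + Real.cos θ) / Real.pi := fun θ =>
    div_nonneg (by linarith [Real.neg_one_le_cos θ]) hp.le
  have hg2 : ∀ θ : ℝ, (1 + Real.cos θ) / Real.pi ≤ 2 / Real.pi := fun θ =>
    div_le_div_of_nonneg_right (by linarith [Real.cos_le_one θ]) hp.le
  have hsplit : ∫ θ in (0:ℝ)..Real.pi, F θ = (∫ θ in (0:ℝ)..r, F θ) + ∫ θ in r..Real.pi, F θ :=
    (intervalIntegral.integral_add_adjacent_intervals (hFc.intervalIntegrable _ _)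
      (hFc.intervalIntegrable _ _)).symm
  have hgc : Continuous fun θ : ℝ => (1 + Real.cos θ) / Real.pi := by fun_prop
  have hI1 : ∫ θ in (0:ℝ)..r, F θ ≤
      ∫ θ in (0:ℝ)..r, ((1 + Real.cos θ) / Real.pi - (c - τ) / 8) := by
    refine intervalIntegral.integral_mono_on_of_le_Ioo hr0.le (hFc.intervalIntegrable _ _)
      ((hgc.sub continuous_const).intervalIntegrable _ _) fun θ hθ => ?_
    have hcos := Real.one_sub_sq_div_two_le_cos (x := θ)
    have hθ2 : θ ^ 2 ≤ ε := by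
      rw [← hr2]
      exact pow_le_pow_left₀ hθ.1.le hθ.2.le 2
    have hu : 2 - 2 * Real.cos θ ≤ ε := by linarith
    have hcl : Real.cos θ < 1 := by
      refine lt_of_le_of_ne (Real.cos_le_one θ) fun hcon => ?_
      have hlt : θ < 2 * Real.pi := by linarith [hθ.2]
      have := (Real.cos_eq_one_iff_of_lt_of_lt (by linarith [hθ.1]) hlt).1 hcon
      exact hθ.1.ne' this
    rw [hFe θ]
    have h5 := caseA (u := 2 - 2 * Real.cos θ) (g := (1 + Real.cos θ) / Real.pi) (c := c) (τ := τ)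
      (ε := ε) (D := D θ) (by linarith) (hg0 θ) hτc hcτ hε hu (hDA θ hu)
    have h6 : 1 / 4 ≤ (1 + Real.cos θ) / Real.pi := by
      rw [le_div_iff₀ hp]
      linarith
    have h7 : (c - τ) / 2 * (1 / 4) ≤ (c - τ) / 2 * ((1 + Real.cos θ) / Real.pi) :=
      mul_le_mul_of_nonneg_left h6 (by linarith)
    linarith
  have hqi : IntervalIntegrable (fun θ : ℝ => (θ ^ 2)⁻¹) volume r Real.pi := by
    refine ContinuousOn.intervalIntegrable ?_
    rw [uIcc_of_le hrp]
    refine ContinuousOn.inv₀ (by fun_prop) fun x hx => ?_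
    exact pow_ne_zero 2 (hr0.trans_le hx.1).ne'
  have hI2 : ∫ θ in r..Real.pi, F θ ≤
      ∫ θ in r..Real.pi, ((1 + Real.cos θ) / Real.pi + 6 * τ * ε * (θ ^ 2)⁻¹) := by
    refine intervalIntegral.integral_mono_on_of_le_Ioo hrp (hFc.intervalIntegrable _ _)
      ((hgc.intervalIntegrable _ _).add (hqi.const_mul _)) fun θ hθ => ?_
    have hθ0 : 0 < θ := hr0.trans hθ.1
    have hcl : Real.cos θ < 1 := by
      refine lt_of_le_of_ne (Real.cos_le_one θ) fun hcon => ?_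
      have hlt : θ < 2 * Real.pi := by linarith [hθ.2]
      have := (Real.cos_eq_one_iff_of_lt_of_lt (by linarith [hθ.1]) hlt).1 hcon
      exact hθ0.ne' this
    have hu0 : 0 < 2 - 2 * Real.cos θ := by linarith
    rw [hFe θ]
    rcases le_or_gt (2 - 2 * Real.cos θ) ε with h2 | h2
    · have h5 := caseA (u := 2 - 2 * Real.cos θ) (g := (1 + Real.cos θ) / Real.pi) (c := c)
        (τ := τ) (ε := ε) (D := D θ) hu0 (hg0 θ) hτc hcτ hε h2 (hDA θ h2)
      have h6 : 0 ≤ (c - τ) / 2 * ((1 + Real.cos θ) / Real.pi) :=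
        mul_nonneg (by linarith) (hg0 θ)
      have h7 : 0 ≤ 6 * τ * ε * (θ ^ 2)⁻¹ := by positivity
      linarith
    · refine caseB (hg0 θ) (hg2 θ) hτ0 hτ2 hε h2 hθ0 ?_ (hDB θ)
      have hj := Real.mul_le_sin (x := θ / 2) (by linarith) (by linarith [hθ.2])
      have hj0 : 0 ≤ 2 / Real.pi * (θ / 2) := by positivity
      have hj2 := pow_le_pow_left₀ hj0 hj 2
      have hcos : Real.cos θ = 1 - 2 * Real.sin (θ / 2) ^ 2 := by
        have := Real.cos_two_mul' (θ / 2)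
        rw [show 2 * (θ / 2) = θ by ring] at this
        rw [this, Real.cos_sq']
        ring
      rw [hcos]
      have e : 4 * θ ^ 2 / Real.pi ^ 2 = 4 * (2 / Real.pi * (θ / 2)) ^ 2 := by
        field_simp
      rw [e]
      linarith
  have hgi : ∀ a b : ℝ, IntervalIntegrable (fun θ : ℝ => (1 + Real.cos θ) / Real.pi) volume a b :=
    fun a b => hgc.intervalIntegrable _ _
  have hG : (∫ θ in (0:ℝ)..r, (1 + Real.cos θ) / Real.pi) +
      ∫ θ in r..Real.pi, (1 + Real.cos θ) / Real.pi = 1 := by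
    rw [intervalIntegral.integral_add_adjacent_intervals (hgi _ _) (hgi _ _)]
    exact integral_g
  rw [intervalIntegral.integral_sub (hgi _ _) intervalIntegrable_const,
    intervalIntegral.integral_const] at hI1
  rw [intervalIntegral.integral_add (hgi _ _) (hqi.const_mul _),
    intervalIntegral.integral_const_mul] at hI2
  have hq := integral_sq_inv hr0 hrp
  have hq2 : 6 * τ * ε * ∫ θ in r..Real.pi, (θ ^ 2)⁻¹ ≤ 6 * τ * r := by
    have h3 := mul_le_mul_of_nonneg_left hq (by positivity : 0 ≤ 6 * τ * ε)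
    refine h3.trans (le_of_eq ?_)
    rw [← hr2]
    field_simp
  have hfin : ∫ θ in (0:ℝ)..Real.pi, F θ ≤ 1 - c / 20 * r := by
    rw [hsplit]
    simp only [smul_eq_mul, sub_zero] at hI1
    have h9 : (c - τ) / 8 * r - 6 * τ * r ≥ c / 20 * r := by
      rw [hτ]
      have : 0 < c * r := by positivity
      nlinarith
    have h10 : r * ((c - τ) / 8) = (c - τ) / 8 * r := mul_comm _ _
    rw [h10] at hI1
    linarith
  exact hfin

end Vale.Agent.P146.R2.H533.X
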