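import Vale.Agent.P146.R2.H793.TrH3
import Vale.Agent.P146.R2.H533.XH1

/-! # P146: row H2 (the R-transform near the edge) -/

open MeasureTheory Set Filter Topology Vale.Agent.P166

namespace Vale.Agent.P146.R2.H533.X

open Vale.Agent.P146.R3 Vale.Agent.P146.R3.H49 Vale.Agent.P146.R2.H793.H3

variable {b d e : ℝ} {h : ℝ → ℝ}

theorem h3s (hb : 0 < b) (hc : Continuous h) (h0 : ∀ x ∈ Icc (-2 : ℝ) 2, 0 ≤ h x)
    (i : ∀ x ∈ Icc (-2 : ℝ) 2, x - h x < 2 - d) (ii : ∫ x, (2 - d - x + h x)⁻¹ ∂sc ≤ 1 - e)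
    (a : ℝ) :
    (∀ y, 0 < y → stInv (sc.map fun x => b * (x - (h x - a))) y ≤
      stInv (muS b 0 0) y + b * a) ∧
    (∀ y, 0 < y → 1 - e ≤ b * y →
      stInv (sc.map fun x => b * (x - (h x - a))) y ≤
        stInv (muS b 0 0) y + b * a - b * d) := by
  have hc' : Continuous fun x => h x - a := hc.sub continuous_const
  refine ⟨fun y hy => ?_, fun y hy hey => ?_⟩
  · rw [← sub_le_iff_le_add]
    refine le_stInv hy fun z hz => ?_
    rw [sub_le_iff_le_add]
    have hz2 := two_lt hz
    have hle : ∀ x ∈ Icc (-2 : ℝ) 2, b * (x - h x) ≤ b * x := fun x hx =>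
      mul_le_mul_of_nonneg_left (by linarith [h0 x hx]) hb.le
    have hle2 : ∀ x ∈ Icc (-2 : ℝ) 2, b * x ≤ 2 * b := fun x hx => by nlinarith [hx.2]
    refine sInv_le ((sSup_le (c := 2 * b + b * a) hc' fun x hx => ?_).trans_lt
      (by linarith)) ?_
    · have h4 : b * (x - (h x - a)) = b * (x - h x) + b * a := by ring
      rw [h4]
      linarith [hle x hx, hle2 x hx]
    have hzz := hz.2
    rw [integral_muS] at hzz
    rw [integral_h hc']
    have e1 : (fun x => (z + b * a - b * (x - (h x - a)))⁻¹) =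
        fun x => (z - b * (x - h x))⁻¹ := by
      funext x
      congr 1
      ring
    rw [e1]
    refine le_trans ?_ hzz
    have hpos : 0 < z - 2 * b := by linarith
    refine integral_mono_ae ?_ ?_ ?_
    · refine integrable_sc (C := (z - 2 * b)⁻¹)
        ((measurable_const.sub (cont_f b hc).measurable).inv) fun x hx => ?_
      have h1 : z - 2 * b ≤ z - b * (x - h x) := by linarith [hle x hx, hle2 x hx]
      rw [abs_of_pos (inv_pos.2 (hpos.trans_le h1))]
      exact inv_anti₀ hpos h1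
    · refine integrable_sc (C := (z - 2 * b)⁻¹)
        ((measurable_const.sub (continuous_hs b 0 0).measurable).inv) fun x hx => ?_
      rw [hs_zero]
      have h1 : z - 2 * b ≤ z - b * x := by linarith [hle2 x hx]
      rw [abs_of_pos (inv_pos.2 (hpos.trans_le h1))]
      exact inv_anti₀ hpos h1
    · filter_upwards [sc_ae] with x hx
      rw [hs_zero]
      exact inv_anti₀ (by linarith [hle2 x hx]) (by linarith [hle x hx])
  · have h1 : stInv (sc.map fun x => b * (x - (h x - a))) y ≤ b * (2 - d) + b * a := by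
      refine sInv_le ?_ ?_
      · obtain ⟨x₀, hx₀, hmax⟩ := isCompact_Icc.exists_isMaxOn
          (nonempty_Icc.2 (by norm_num : (-2 : ℝ) ≤ 2)) (cont_f b hc').continuousOn
        refine (sSup_le hc' fun x hx => hmax hx).trans_lt ?_
        have h5 := mul_lt_mul_of_pos_left (i x₀ hx₀) hb
        have h6 : b * (x₀ - (h x₀ - a)) = b * (x₀ - h x₀) + b * a := by ring
        simp only [h6]
        linarith
      · rw [integral_h hc']
        have h2 : (fun x => (b * (2 - d) + b * a - b * (x - (h x - a)))⁻¹) =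
            fun x => b⁻¹ * (2 - d - x + h x)⁻¹ := by
          funext x
          rw [← mul_inv]
          congr 1
          ring
        rw [h2, integral_const_mul]
        calc b⁻¹ * ∫ x, (2 - d - x + h x)⁻¹ ∂sc ≤ b⁻¹ * (b * y) :=
              mul_le_mul_of_nonneg_left (ii.trans hey) (inv_pos.2 hb).le
          _ = y := by field_simp
    have h2 : 2 * b ≤ stInv (muS b 0 0) y := le_stInv hy fun z hz => (two_lt hz).le
    linarith

theorem stH2 : Vale.Agent.P146.R2.H952.X.StH2 := by
  intro c hc hc1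
  obtain ⟨τ, κ, hτ, hτc, hκ, H⟩ := stH1 c hc hc1
  refine ⟨τ, κ, hτ, hκ, ?_⟩
  intro β hβ ε hε hε1 h a hh h0 h1 μ hμ
  have hi : ∀ x ∈ Icc (-2 : ℝ) 2, x - h x < 2 - τ * ε := by
    intro x hx
    rcases lt_or_ge x (2 - ε) with h2 | h2
    · have h3 := h0 x hx
      have h4 : τ * ε ≤ 1 * ε := mul_le_mul_of_nonneg_right (by linarith) hε.le
      linarith
    · have h3 := h1 x ⟨h2, hx.2⟩
      have h4 : τ * ε < c * ε := mul_lt_mul_of_pos_right hτc hε
      linarith [hx.2]
  have h5 := h3s hβ hh h0 hi (H ε hε hε1 h hh h0 h1) a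
  rw [hμ]
  exact h5

end Vale.Agent.P146.R2.H533.X
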